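/-
Row 82 (S0109), WP-Ca (part of helper59): basic measure facts for the uniform probability
measure on a convex body. Statements verbatim from `Crest.Agent.Helper75.OT.Spec`.
-/
import Crest.Agent.Helper75.OT.Defs

set_option autoImplicit false

noncomputable section

open MeasureTheory Filter Topology
open scoped ENNReal NNReal RealInnerProductSpace

namespace Crest.Agent.Helper75.OT

open Crest.AnalysisR.OT

variable {d : ℕ}

theorem vol_ne_zero {K : Set (E d)} (hK : Body K) : volume K ≠ 0 := by
  have h1 : 0 < volume (interior K) := isOpen_interior.measure_pos volume hK.inter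
  exact (h1.trans_le (measure_mono interior_subset)).ne'

theorem vol_ne_top {K : Set (E d)} (hK : Body K) : volume K ≠ ⊤ :=
  hK.compact.measure_lt_top.ne

theorem vol_pos {K : Set (E d)} (hK : Body K) : 0 < (volume K).toReal :=
  ENNReal.toReal_pos (vol_ne_zero hK) (vol_ne_top hK)

theorem rho_prob {K : Set (E d)} (hK : Body K) : IsProbabilityMeasure (uniformProbOn K) := by
  constructor
  unfold uniformProbOn
  rw [Measure.smul_apply, Measure.restrict_apply_univ, smul_eq_mul]
  exact ENNReal.inv_mul_cancel (vol_ne_zero hK) (vol_ne_top hK)

theorem rho_compl {K : Set (E d)} (hK : Body K) : (uniformProbOn K) Kᶜ = 0 := by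
  unfold uniformProbOn
  rw [Measure.smul_apply, Measure.restrict_apply hK.compact.isClosed.measurableSet.compl]
  simp

theorem rho_ac (K : Set (E d)) : (uniformProbOn K) ≪ (volume : Measure (E d)) := by
  unfold uniformProbOn
  exact (Measure.restrict_le_self.absolutelyContinuous).smul_left _

/-- Formula for integrals against the source measure. -/
theorem rho_integral {K : Set (E d)} (hK : Body K) {F : Type} [NormedAddCommGroup F]
    [NormedSpace ℝ F] (f : E d → F) :
    ∫ x, f x ∂(uniformProbOn K) = (volume K).toReal⁻¹ • ∫ x in K, f x := by
  unfold uniformProbOn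
  rw [integral_smul_measure, ENNReal.toReal_inv]

end Crest.Agent.Helper75.OT
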